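import Mathlib

/-!
# The upper bound `χ(ℝ²) ≤ 7`

A proper colouring of the Euclidean plane with seven colours: half-open bricks of size
`4/5 × 3/5`, row `j` shifted by `j/2` bricks, brick `i` of row `j` has colour `i - 2 j mod 7`.
Two bricks of the same colour are equal (diameter of a brick: at most 1, not attained),
or at distance greater than 1.
-/

namespace Vale.Agent.P032.H490

/-- Row number of a point. -/
noncomputable def row (y : ℝ) : ℤ := ⌊5 / 3 * y⌋

/-- Number of the brick inside the row. -/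
noncomputable def col (x y : ℝ) : ℤ := ⌊5 / 4 * x - (row y : ℝ) / 2⌋

theorem near {u v : ℝ} (h : u ^ 2 + v ^ 2 = 1) (h1 : u < 4 / 5) (h2 : -(4 / 5) < u)
    (h3 : v < 3 / 5) (h4 : -(3 / 5) < v) : False := by
  have a : u ^ 2 < (4 / 5) ^ 2 := sq_lt_sq' h2 h1
  have b : v ^ 2 < (3 / 5) ^ 2 := sq_lt_sq' h4 h3
  norm_num at a b
  linarith

theorem far {u v : ℝ} (h : u ^ 2 + v ^ 2 = 1) (h1 : 4 / 5 < u) (h2 : 3 / 5 < v) : False := by
  have a : (4 / 5) ^ 2 < u ^ 2 := sq_lt_sq' (by linarith) h1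
  have b : (3 / 5) ^ 2 < v ^ 2 := sq_lt_sq' (by linarith) h2
  norm_num at a b
  linarith

theorem le_one_of_sq {u v : ℝ} (h : u ^ 2 + v ^ 2 = 1) : u ≤ 1 ∧ -1 ≤ u := by
  have : u ^ 2 ≤ 1 := by nlinarith [sq_nonneg v]
  exact ⟨by nlinarith, by nlinarith⟩

theorem brick_key (x y x' y' : ℝ) (h : (x - x') ^ 2 + (y - y') ^ 2 = 1) :
    ¬ (7 : ℤ) ∣ ((col x y - 2 * row y) - (col x' y' - 2 * row y')) := by
  intro hd
  have r1 := Int.floor_le (5 / 3 * y)
  have r2 := Int.lt_floor_add_one (5 / 3 * y)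
  have r1' := Int.floor_le (5 / 3 * y')
  have r2' := Int.lt_floor_add_one (5 / 3 * y')
  have c1 := Int.floor_le (5 / 4 * x - (row y : ℝ) / 2)
  have c2 := Int.lt_floor_add_one (5 / 4 * x - (row y : ℝ) / 2)
  have c1' := Int.floor_le (5 / 4 * x' - (row y' : ℝ) / 2)
  have c2' := Int.lt_floor_add_one (5 / 4 * x' - (row y' : ℝ) / 2)
  change ((row y : ℤ) : ℝ) ≤ _ at r1
  change _ < ((row y : ℤ) : ℝ) + 1 at r2
  change ((row y' : ℤ) : ℝ) ≤ _ at r1'
  change _ < ((row y' : ℤ) : ℝ) + 1 at r2'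
  change ((col x y : ℤ) : ℝ) ≤ _ at c1
  change _ < ((col x y : ℤ) : ℝ) + 1 at c2
  change ((col x' y' : ℤ) : ℝ) ≤ _ at c1'
  change _ < ((col x' y' : ℤ) : ℝ) + 1 at c2'
  generalize row y = j at *
  generalize row y' = j' at *
  generalize col x y = i at *
  generalize col x' y' = i' at *
  obtain ⟨hx1, hx2⟩ := le_one_of_sq h
  obtain ⟨hy1, hy2⟩ := le_one_of_sq ((add_comm _ _).trans h)
  -- the integer differences
  have hj1 : ((j - j' : ℤ) : ℝ) < 3 := by push_cast; linarith
  have hj2 : (-3 : ℝ) < ((j - j' : ℤ) : ℝ) := by push_cast; linarith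
  have hi1 : ((2 * (i - i') + (j - j') : ℤ) : ℝ) < 9 / 2 := by push_cast; linarith
  have hi2 : (-(9 / 2) : ℝ) < ((2 * (i - i') + (j - j') : ℤ) : ℝ) := by push_cast; linarith
  have hj1' : j - j' < 3 := by exact_mod_cast hj1
  have hj2' : -3 < j - j' := by exact_mod_cast hj2
  have hi1' : 2 * (i - i') + (j - j') < 5 := by
    have : ((2 * (i - i') + (j - j') : ℤ) : ℝ) < ((5 : ℤ) : ℝ) := by push_cast at hi1 ⊢; linarith
    exact_mod_cast this
  have hi2' : -5 < 2 * (i - i') + (j - j') := by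
    have : ((-5 : ℤ) : ℝ) < ((2 * (i - i') + (j - j') : ℤ) : ℝ) := by push_cast at hi2 ⊢; linarith
    exact_mod_cast this
  -- three cases
  have hcases : (i - i' = 0 ∧ j - j' = 0) ∨ (i - i' = -3 ∧ j - j' = 2) ∨
      (i - i' = 3 ∧ j - j' = -2) := by
    have hjj : j - j' = -2 ∨ j - j' = -1 ∨ j - j' = 0 ∨ j - j' = 1 ∨ j - j' = 2 := by omega
    rcases hjj with h | h | h | h | h <;> omega
  rcases hcases with ⟨h1, h2⟩ | ⟨h1, h2⟩ | ⟨h1, h2⟩
  · have hi : i = i' := by omega
    have hj : j = j' := by omega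
    subst hi; subst hj
    exact near h (by linarith) (by linarith) (by linarith) (by linarith)
  · have hi : (i : ℝ) = i' - 3 := by
      have : i = i' - 3 := by omega
      rw [this]; push_cast; ring
    have hj : (j : ℝ) = j' + 2 := by
      have : j = j' + 2 := by omega
      rw [this]; push_cast; ring
    exact far (u := x' - x) (v := y - y') (by rw [← h]; ring) (by linarith) (by linarith)
  · have hi : (i : ℝ) = i' + 3 := by
      have : i = i' + 3 := by omega
      rw [this]; push_cast; ring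
    have hj : (j : ℝ) = j' - 2 := by
      have : j = j' - 2 := by omega
      rw [this]; push_cast; ring
    exact far (u := x - x') (v := y' - y) (by rw [← h]; ring) (by linarith) (by linarith)

/-- **`χ(ℝ²) ≤ 7`** (Isbell): the Euclidean plane has a proper colouring with seven colours. -/
theorem seven_colouring :
    ∃ c : EuclideanSpace ℝ (Fin 2) → Fin 7,
      ∀ x y : EuclideanSpace ℝ (Fin 2), dist x y = 1 → c x ≠ c y := by
  refine ⟨fun p => ⟨((col (p 0) (p 1) - 2 * row (p 1)) % 7).toNat, ?_⟩, ?_⟩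
  · omega
  · intro p q hpq h
    have hd : (p 0 - q 0) ^ 2 + (p 1 - q 1) ^ 2 = 1 := by
      have := EuclideanSpace.dist_eq p q
      rw [hpq] at this
      have h2 : (1 : ℝ) ^ 2 = (√(∑ i, dist (p i) (q i) ^ 2)) ^ 2 := by rw [← this]
      rw [Real.sq_sqrt (Finset.sum_nonneg fun i _ => sq_nonneg _)] at h2
      simp only [Fin.sum_univ_two, Real.dist_eq, sq_abs] at h2
      linarith
    apply brick_key _ _ _ _ hd
    have h' := congrArg Fin.val h
    simp only at h'
    omega

/-- Assembly: if the plane has no proper 6-colouring, then the least `k` for which it has a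
proper `k`-colouring is 7. -/
theorem isLeast_seven_of_no_six
    (h6 : ¬ ∃ c : EuclideanSpace ℝ (Fin 2) → Fin 6,
      ∀ x y : EuclideanSpace ℝ (Fin 2), dist x y = 1 → c x ≠ c y) :
    IsLeast {k : ℕ | ∃ c : EuclideanSpace ℝ (Fin 2) → Fin k,
      ∀ x y : EuclideanSpace ℝ (Fin 2), dist x y = 1 → c x ≠ c y} 7 := by
  refine ⟨seven_colouring, ?_⟩
  rintro k ⟨c, hc⟩
  by_contra hk
  have hk6 : k ≤ 6 := by omega
  exact h6 ⟨fun x => Fin.castLE hk6 (c x), fun x y h e =>
    hc x y h (Fin.castLE_injective hk6 e)⟩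

/-- The unit-distance graph of the Euclidean plane. -/
def plane : SimpleGraph (EuclideanSpace ℝ (Fin 2)) where
  Adj x y := dist x y = 1
  symm := ⟨fun x y h => by rw [dist_comm]; exact h⟩
  loopless := ⟨fun x h => by simp at h⟩

/-- Assembly in Mathlib's language: no proper 6-colouring implies `χ(ℝ²) = 7`. -/
theorem chromaticNumber_eq_seven_of_no_six
    (h6 : ¬ ∃ c : EuclideanSpace ℝ (Fin 2) → Fin 6,
      ∀ x y : EuclideanSpace ℝ (Fin 2), dist x y = 1 → c x ≠ c y) :
    plane.chromaticNumber = 7 := by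
  obtain ⟨⟨c, hc⟩, hle⟩ := isLeast_seven_of_no_six h6
  apply le_antisymm
  · have : plane.Colorable 7 := ⟨SimpleGraph.Coloring.mk c (fun {x y} h => hc x y h)⟩
    exact_mod_cast this.chromaticNumber_le
  · refine le_iInf₂ (fun n hn => ?_)
    obtain ⟨C⟩ := hn
    have : 7 ≤ n := hle ⟨C, fun x y h => C.valid (show plane.Adj x y from h)⟩
    exact_mod_cast this

end Vale.Agent.P032.H490
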